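import Vale.Agent.P258.R2.H863.Spec

set_option autoImplicit false
set_option linter.all false

/-! Rows B1, B2, B3 of `P258.R2.H863.Spec`. -/

namespace Vale.Agent.P258.R2.H891

open Vale.Agent.P258.R2.H863

theorem free_dvd : SpecFree := by
  intro H X _ _ _ _ hfree
  have e := MulAction.selfEquivSigmaOrbitsQuotientStabilizer H X
  have hs : ∀ x : X, MulAction.stabilizer H x = ⊥ := fun x => by
    rw [Subgroup.eq_bot_iff_forall]
    intro h hh
    exact hfree x h hh
  have e2 : X ≃ (Σ _ : MulAction.orbitRel.Quotient H X, H) :=
    e.trans (Equiv.sigmaCongrRight fun ω => by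
      have h1 := hs ω.out
      rw [h1]
      exact QuotientGroup.quotientBot.toEquiv)
  rw [Nat.card_congr (e2.trans (Equiv.sigmaEquivProd _ _)), Nat.card_prod]
  exact Dvd.intro_left _ rfl

theorem cent : SpecCent := by
  unfold SpecCent Is4
  decide +kernel

theorem count : SpecCount := by
  intro Γ G _ _ _ det _
  classical
  have e : {f : Γ →* G // ¬ ∃ x, det (f x) ≠ 1} ≃ (Γ →* det.ker) :=
    { toFun := fun f => f.1.codRestrict det.ker fun x => by
        have := f.2
        push Not at this
        exact MonoidHom.mem_ker.2 (this x)
      invFun := fun f => ⟨det.ker.subtype.comp f, by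
        push Not
        intro x
        exact (f x).2⟩
      left_inv := fun f => by
        apply Subtype.ext
        ext x
        rfl
      right_inv := fun f => by
        ext x
        rfl }
  rw [← Nat.card_congr e]
  have h := Nat.card_congr (Equiv.sumCompl fun f : Γ →* G => ∃ x, det (f x) ≠ 1)
  rw [← h, Nat.card_sum]

end Vale.Agent.P258.R2.H891
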